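import Mathlib
import Vale.Agent.P083.Defs
import Vale.Agent.P083.Final

namespace Vale.Agent.Results.P083.Main

open Vale.Agent.P083

/-- Kirchberg's embedding problem has a negative answer: some separable unital C*-algebra has no
unital embedding into a norm ultrapower of the Cuntz algebra. -/
theorem result : ∃ (A : Type) (_ : CStarAlgebra A), TopologicalSpace.SeparableSpace A ∧
    ∀ (B : Type) [CStarAlgebra B] [Nontrivial B] (s₁ s₂ : B),
      star s₁ * s₁ = 1 → star s₂ * s₂ = 1 → s₁ * star s₁ + s₂ * star s₂ = 1 →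
      (StarAlgebra.adjoin ℂ {s₁, s₂}).topologicalClosure = ⊤ →
      ∀ (ω : Ultrafilter ℕ) (φ : A →⋆ₐ[ℂ] Ultrapower ω B), ¬ Function.Injective φ := by
  obtain ⟨A, _, hA, σ, v, b, y₀, a1, a2, a3, a4, a5, a6⟩ := exists_alg
  exact ⟨A, inferInstance, hA, fun B _ _ s₁ s₂ b1 b2 b3 b4 ω φ =>
    not_injective b1 b2 b3 b4 a1 a2 a3 a4 a5 a6⟩

end Vale.Agent.Results.P083.Main
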